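import Crest.Agent.Lib.UnivCStar.Basic

/-!
The full group C⋆-algebra and the Cuntz algebra on two generators exist.
-/

set_option autoImplicit false

noncomputable section

namespace Crest.Agent.Lib.UnivCStar

theorem norm_le_one_of_isometry {B : Type*} [CStarAlgebra B] {x : B} (h : star x * x = 1) :
    ‖x‖ ≤ 1 := by
  have h1 : ‖x‖ * ‖x‖ = ‖(1 : B)‖ := by rw [← CStarRing.norm_star_mul_self, h]
  have h2 : ‖(1 : B)‖ ≤ 1 := by
    rcases subsingleton_or_nontrivial B with h | h
    · rw [Subsingleton.elim (1 : B) 0]; simp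
    · simp
  nlinarith [norm_nonneg x]

/-- The presentation of the full group C⋆-algebra. -/
def groupPres (Γ : Type) [Group Γ] : Pres Γ where
  rel := {r | (∃ g h : Γ, r = FreeStar.of (g * h) - FreeStar.of g * FreeStar.of h) ∨
    r = FreeStar.of (1 : Γ) - 1 ∨ ∃ g : Γ, r = star (FreeStar.of g) - FreeStar.of g⁻¹}
  bdd B _ w hw s := by
    apply norm_le_one_of_isometry
    have h1 := hw _ (Or.inl ⟨s⁻¹, s, rfl⟩)
    have h2 := hw _ (Or.inr (Or.inl rfl))
    have h3 := hw _ (Or.inr (Or.inr ⟨s, rfl⟩))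
    simp only [map_sub, map_mul, map_one, map_star, FreeStar.lift_of, sub_eq_zero,
      inv_mul_cancel] at h1 h2 h3
    rw [h3, ← h1, h2]

theorem exists_fullGroupCStar (Γ : Type) [Group Γ] :
    ∃ (A : Type) (_ : CStarAlgebra A) (u : Γ →* unitary A),
      (StarAlgebra.adjoin ℂ (Set.range fun g : Γ => ((u g : unitary A) : A))).topologicalClosure = ⊤ ∧
      ∀ (B : Type) [CStarAlgebra B] (w : Γ →* unitary B),
        ∃ φ : A →⋆ₐ[ℂ] B, ∀ g : Γ, φ ((u g : unitary A) : A) = ((w g : unitary B) : B) := by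
  obtain ⟨A, inst, g, hrel, hdense, huniv⟩ := exists_universal (groupPres Γ)
  have h1 : ∀ a b, g (a * b) = g a * g b := fun a b => by
    have := hrel _ (Or.inl ⟨a, b, rfl⟩)
    simpa only [map_sub, map_mul, FreeStar.lift_of, sub_eq_zero] using this
  have h2 : g 1 = 1 := by
    have := hrel _ (Or.inr (Or.inl rfl))
    simpa only [map_sub, map_one, FreeStar.lift_of, sub_eq_zero] using this
  have h3 : ∀ a, star (g a) = g a⁻¹ := fun a => by
    have := hrel _ (Or.inr (Or.inr ⟨a, rfl⟩))
    simpa only [map_sub, map_star, FreeStar.lift_of, sub_eq_zero] using this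
  let u : Γ →* unitary A :=
    { toFun := fun a => ⟨g a, by
        rw [Unitary.mem_iff, h3, ← h1, ← h1, inv_mul_cancel, mul_inv_cancel, h2]
        exact ⟨rfl, rfl⟩⟩
      map_one' := Subtype.ext h2
      map_mul' := fun a b => Subtype.ext (h1 a b) }
  refine ⟨A, inst, u, hdense, fun B _ w => ?_⟩
  refine huniv B (fun a => ((w a : unitary B) : B)) ?_
  rintro r (⟨a, b, rfl⟩ | rfl | ⟨a, rfl⟩)
  · simp
  · simp
  · simp only [map_sub, map_star, FreeStar.lift_of, sub_eq_zero, map_inv]
    rfl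

/-- The presentation of the Cuntz algebra on two generators. -/
def cuntzPres : Pres Bool where
  rel := {r | (∃ b : Bool, r = star (FreeStar.of b) * FreeStar.of b - 1) ∨
    r = FreeStar.of false * star (FreeStar.of false) + FreeStar.of true * star (FreeStar.of true) - 1}
  bdd B _ w hw s := by
    apply norm_le_one_of_isometry
    have h1 := hw _ (Or.inl ⟨s, rfl⟩)
    simpa only [map_sub, map_mul, map_one, map_star, FreeStar.lift_of, sub_eq_zero] using h1

theorem exists_cuntzTwo :
    ∃ (O : Type) (_ : CStarAlgebra O) (s₁ s₂ : O),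
      star s₁ * s₁ = 1 ∧ star s₂ * s₂ = 1 ∧ s₁ * star s₁ + s₂ * star s₂ = 1 ∧
      (StarAlgebra.adjoin ℂ ({s₁, s₂} : Set O)).topologicalClosure = ⊤ ∧
      ∀ (B : Type) [CStarAlgebra B] (t₁ t₂ : B),
        star t₁ * t₁ = 1 → star t₂ * t₂ = 1 → t₁ * star t₁ + t₂ * star t₂ = 1 →
          ∃ φ : O →⋆ₐ[ℂ] B, φ s₁ = t₁ ∧ φ s₂ = t₂ := by
  obtain ⟨A, inst, g, hrel, hdense, huniv⟩ := exists_universal cuntzPres
  have h1 : ∀ b, star (g b) * g b = 1 := fun b => by
    have := hrel _ (Or.inl ⟨b, rfl⟩)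
    simpa only [map_sub, map_mul, map_one, map_star, FreeStar.lift_of, sub_eq_zero] using this
  have h2 : g false * star (g false) + g true * star (g true) = 1 := by
    have := hrel _ (Or.inr rfl)
    simpa only [map_sub, map_add, map_mul, map_one, map_star, FreeStar.lift_of, sub_eq_zero]
      using this
  have hr : Set.range g = {g false, g true} := by
    ext x; simp
  refine ⟨A, inst, g false, g true, h1 _, h1 _, h2, hr ▸ hdense, fun B _ t₁ t₂ e1 e2 e3 => ?_⟩
  obtain ⟨φ, hφ⟩ := huniv B (fun b => cond b t₂ t₁) (by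
    rintro r (⟨b, rfl⟩ | rfl)
    · cases b <;> simp [map_star, e1, e2]
    · simp [map_star, e3])
  exact ⟨φ, hφ false, hφ true⟩

end Crest.Agent.Lib.UnivCStar
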